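import Vale.Agent.Lib.P183.Exc.Main

/-!
# P183: the exceptional seven-element lattice is representable

`L7` is the seven-element lattice `{0, a, b, w, c, d, 1}` whose only strict relations, apart
from `0 < x < 1`, are `a < c`, `b < c` and `a < d` (realised as seven subsets of `{0, 1, 2, 3}`
under inclusion).  It is the one lattice with at most seven elements that was not known to be
the congruence lattice of a finite algebra.  Here it is shown to be isomorphic to an interval
`[H, G]` in the subgroup lattice of a finite group `G`, and hence to the congruence lattice of a
finite algebra.

The group `G` used in the proof is a twisted wreath product: the semidirect product of the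
group of all functions `f : P → T` with `f (p * q) = (ι q)⁻¹ * f p * ι q` by `P`, where `P` is
the Mathieu group of degree 22, `T` is the alternating group of degree six, `Q` is a subgroup of
`P` of order sixty and `ι` maps `Q` onto a point stabiliser of `T`; `H` is the complement `P`.
-/

namespace Vale.Agent.Results.P183.ExceptionalL7

open Vale.Agent.Lib.P183 Vale.Agent.Lib.P183.Exc

theorem result :
    (∃ (G : Type) (_ : Group G) (_ : Finite G) (H : Subgroup G),
      Nonempty (OrderIso (Set.Ici H) L7)) ∧ Representable L7 :=
  ⟨L7_interval, L7_representable⟩

end Vale.Agent.Results.P183.ExceptionalL7
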