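import Vale.Agent.Lib.P183.Exc.Main
import Vale.Agent.Lib.P183.FieldParallelSum
import Vale.Agent.Lib.P183.Chain

/-!
# P183: three results on the finite lattice representation problem in one statement

1. `L7`, the seven-element lattice `{0, a, b, w, c, d, 1}` whose only strict relations, apart
   from `0 < x < 1`, are `a < c`, `b < c` and `a < d`, is isomorphic to an interval `[H, G]` in
   the subgroup lattice of a finite group `G`, and hence to the congruence lattice of a finite
   algebra.
2. For every prime power `q`, the parallel sum of `q + 1` lattices, each isomorphic to the
   congruence lattice of a finite algebra, is again isomorphic to the congruence lattice of a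
   finite algebra (the parallel sum is the disjoint union, elements of different summands
   incomparable, with a new least and a new greatest element added).
3. For every prime power `q`, the parallel sum of any `q + 1` nonempty finite chains is
   isomorphic to the congruence lattice of a finite algebra.
-/

namespace Vale.Agent.Results.P183.L7AndParallelSums

open Vale.Agent.Lib.P183 Vale.Agent.Lib.P183.Exc

theorem result :
    ((∃ (G : Type) (_ : Group G) (_ : Finite G) (H : Subgroup G),
      Nonempty (OrderIso (Set.Ici H) L7)) ∧ Representable L7) ∧
    (∀ (q : ℕ), IsPrimePow q → ∀ (L : Fin (q + 1) → Type*) [∀ i, Lattice (L i)],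
      (∀ i, Representable (L i)) → Representable (WithBot (WithTop (Σ i, L i)))) ∧
    (∀ (q : ℕ), IsPrimePow q → ∀ (n : Fin (q + 1) → ℕ),
      Representable (WithBot (WithTop (Σ i : Fin (q + 1), Fin (n i + 1))))) :=
  ⟨⟨L7_interval, L7_representable⟩,
    fun q hq L _ h => representable_primePow q hq L h,
    fun q hq n => representable_primePow q hq (fun i => Fin (n i + 1))
      (fun i => representable_of_linearOrder (Fin (n i + 1)))⟩

end Vale.Agent.Results.P183.L7AndParallelSums
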