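import Vale.Agent.Lib.P183.FieldParallelSum

/-!
# P183: representable lattices are closed under parallel sums of `q + 1` summands

Let `q` be a prime power.  If `q + 1` lattices are each isomorphic to the congruence lattice
of a finite algebra, then so is their parallel sum: the disjoint union of the `q + 1` lattices
(elements of different summands incomparable) with a new least element and a new greatest
element added.
-/

namespace Vale.Agent.Results.P183.PrimePowerParallelSum

open Vale.Agent.Lib.P183

theorem result (q : ℕ) (hq : IsPrimePow q) (L : Fin (q + 1) → Type*) [∀ i, Lattice (L i)]
    (h : ∀ i, Representable (L i)) : Representable (WithBot (WithTop (Σ i, L i))) :=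
  representable_primePow q hq L h

end Vale.Agent.Results.P183.PrimePowerParallelSum
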