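import Vale.Agent.Lib.P183.FourSum

/-!
# P183: three explicit seven-element lattices are congruence lattices of finite algebras

The seven-element lattices that are parallel sums of three or four chains are representable:
the hexagon with an extra element that is both an atom and a coatom (chains with 2, 2, 1
elements), the lattice obtained from `M_3` by replacing one atom by a three-element chain
(chains with 3, 1, 1 elements), and the lattice obtained from `M_4` by replacing one atom by a
two-element chain (chains with 2, 1, 1, 1 elements).
-/

namespace Vale.Agent.Results.P183.SevenElementChainSums

open Vale.Agent.Lib.P183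

theorem result :
    Representable (WithBot (WithTop (Fin 2 ⊕ Fin 2 ⊕ Fin 1))) ∧
    Representable (WithBot (WithTop (Fin 3 ⊕ Fin 1 ⊕ Fin 1))) ∧
    Representable (WithBot (WithTop (Fin 2 ⊕ Fin 1 ⊕ Fin 1 ⊕ Fin 1))) :=
  representable_seven

end Vale.Agent.Results.P183.SevenElementChainSums
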